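import Vale.Agent.Lib.P141.Criterion

namespace Vale.Agent.Results.P141.Criterion

open Vale.Agent.Lib.P141

/-- Covering criterion for unboundedness of the trilinear Hilbert transform with slopes 1, 2, 3.
Let `b ≥ 2`, let `X₀` be a finite set of integers that are pairwise incongruent mod `b`, and let
`D₁, D₂, D₃` be finite sets of integers such that every `x ∈ X₀` admits an integer `t` with
`x - t ∈ D₁`, `x - 2t ∈ D₂`, `x - 3t ∈ D₃`. Then `T` is not bounded at any exponents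
`(p₁, p₂, p₃, r)` with `b |D₁|^{1/p₁} |D₂|^{1/p₂} |D₃|^{1/p₃} < |X₀|^{1/r}`. -/
theorem result (b : ℤ) (hb : 2 ≤ b) (X₀ D₁ D₂ D₃ : Finset ℤ)
    (hinj : ∀ x ∈ X₀, ∀ y ∈ X₀, b ∣ x - y → x = y)
    (hcov : ∀ x ∈ X₀, ∃ t : ℤ, x - t ∈ D₁ ∧ x - 2 * t ∈ D₂ ∧ x - 3 * t ∈ D₃)
    {p₁ p₂ p₃ r : ℝ} (hp₁ : 0 < p₁) (hp₂ : 0 < p₂) (hp₃ : 0 < p₃) (hr : 0 < r)
    (hineq : (b : ℝ) * (D₁.card : ℝ) ^ (1 / p₁) * (D₂.card : ℝ) ^ (1 / p₂)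
      * (D₃.card : ℝ) ^ (1 / p₃) < (X₀.card : ℝ) ^ (1 / r)) :
    ¬ BoundedAt (ENNReal.ofReal p₁) (ENNReal.ofReal p₂) (ENNReal.ofReal p₃)
      (ENNReal.ofReal r) :=
  not_boundedAt_of_covering b hb X₀ D₁ D₂ D₃ hinj hcov hp₁ hp₂ hp₃ hr hineq

end Vale.Agent.Results.P141.Criterion
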