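import Vale.Agent.Lib.P141.Holder

namespace Vale.Agent.Results.P141.Diagonal

open Vale.Agent.Lib.P141
open scoped ENNReal

theorem num_aux : (18 : ℝ) < (243 / 5 : ℝ) ^ (3 / 4 : ℝ) := by
  have h1 : (18 : ℝ) = ((18 : ℝ) ^ (4 : ℕ)) ^ (1 / 4 : ℝ) := by
    rw [← Real.rpow_natCast, ← Real.rpow_mul (by norm_num)]
    norm_num
  have h2 : (243 / 5 : ℝ) ^ (3 / 4 : ℝ) = ((243 / 5 : ℝ) ^ (3 : ℕ)) ^ (1 / 4 : ℝ) := by
    rw [← Real.rpow_natCast, ← Real.rpow_mul (by norm_num)]
    norm_num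
  rw [h2]
  nth_rewrite 1 [h1]
  exact Real.rpow_lt_rpow (by positivity) (by norm_num) (by norm_num)

/-- The trilinear Hilbert transform (slopes 1, 2, 3) is not bounded from
`L^p × L^p × L^p` to `L^{p/3}` for any `1 < p ≤ 4/3`. -/
theorem result {p : ℝ} (hp : 1 < p) (hp' : p ≤ 4 / 3) :
    ¬ BoundedAt (ENNReal.ofReal p) (ENNReal.ofReal p) (ENNReal.ofReal p)
      (ENNReal.ofReal (p / 3)) := by
  have hp0 : 0 < p := by linarith
  refine not_boundedAt_of_covering 18 (by norm_num) (Finset.Icc 8 25) {11, 13, 15, 17, 19}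
    {12, 13, 14, 15} {7, 9, 11, 13, 15, 17} ?_ ?_ hp0 hp0 hp0 (by positivity) ?_
  · intro x hx y hy h
    simp only [Finset.mem_Icc] at hx hy
    omega
  · intro x hx
    simp only [Finset.mem_Icc] at hx
    obtain ⟨h0, h1⟩ := hx
    interval_cases x
    · exact ⟨-3, by decide⟩
    · exact ⟨-2, by decide⟩
    · exact ⟨-1, by decide⟩
    · exact ⟨-2, by decide⟩
    · exact ⟨-1, by decide⟩
    · exact ⟨0, by decide⟩
    · exact ⟨1, by decide⟩
    · exact ⟨0, by decide⟩
    · exact ⟨1, by decide⟩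
    · exact ⟨2, by decide⟩
    · exact ⟨3, by decide⟩
    · exact ⟨2, by decide⟩
    · exact ⟨3, by decide⟩
    · exact ⟨4, by decide⟩
    · exact ⟨5, by decide⟩
    · exact ⟨4, by decide⟩
    · exact ⟨5, by decide⟩
    · exact ⟨6, by decide⟩
  · have c1 : (({11, 13, 15, 17, 19} : Finset ℤ).card : ℝ) = 5 := by
      have : ({11, 13, 15, 17, 19} : Finset ℤ).card = 5 := by decide
      rw [this]; norm_num
    have c2 : (({12, 13, 14, 15} : Finset ℤ).card : ℝ) = 4 := by
      have : ({12, 13, 14, 15} : Finset ℤ).card = 4 := by decide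
      rw [this]; norm_num
    have c3 : (({7, 9, 11, 13, 15, 17} : Finset ℤ).card : ℝ) = 6 := by
      have : ({7, 9, 11, 13, 15, 17} : Finset ℤ).card = 6 := by decide
      rw [this]; norm_num
    have c0 : ((Finset.Icc (8 : ℤ) 25).card : ℝ) = 18 := by
      have : (Finset.Icc (8 : ℤ) 25).card = 18 := by decide
      rw [this]; norm_num
    rw [c0, c1, c2, c3]
    set q := 1 / p with hq
    have hq34 : 3 / 4 ≤ q := by
      rw [hq, le_div_iff₀ hp0]; linarith
    have e1 : 1 / (p / 3) = q + q + q := by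
      rw [hq]; field_simp; norm_num
    rw [e1]
    have e18 : (18 : ℝ) ^ (q + q + q) = (243 / 5 : ℝ) ^ q * (5 ^ q * 4 ^ q * 6 ^ q) := by
      rw [Real.rpow_add (by norm_num), Real.rpow_add (by norm_num),
        ← Real.mul_rpow (by norm_num) (by norm_num), ← Real.mul_rpow (by norm_num) (by norm_num),
        ← Real.mul_rpow (by norm_num) (by norm_num), ← Real.mul_rpow (by norm_num) (by norm_num),
        ← Real.mul_rpow (by norm_num) (by norm_num)]
      norm_num
    have h1 : (18 : ℝ) < (243 / 5 : ℝ) ^ q :=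
      lt_of_lt_of_le num_aux (Real.rpow_le_rpow_of_exponent_le (by norm_num) hq34)
    have hpos : 0 < (5 : ℝ) ^ q * 4 ^ q * 6 ^ q := by positivity
    rw [e18]
    calc ((18 : ℤ) : ℝ) * 5 ^ q * 4 ^ q * 6 ^ q = 18 * (5 ^ q * 4 ^ q * 6 ^ q) := by
          push_cast; ring
      _ < (243 / 5 : ℝ) ^ q * (5 ^ q * 4 ^ q * 6 ^ q) := by gcongr

end Vale.Agent.Results.P141.Diagonal
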