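import Vale.Agent.Results.P141.SmallR
import Vale.Agent.Results.P141.Criterion
import Vale.Agent.Results.P141.Diagonal

/-!
# P141: the unboundedness results for the trilinear Hilbert transform in one statement

(1) `T` is unbounded at every Holder tuple with `r ≤ 7/16`;
(2) `T` is unbounded at the diagonal tuples `(p, p, p, p/3)`, `1 < p ≤ 4/3` (so up to `r = 4/9`);
(3) the general digit covering criterion for unboundedness.
-/

namespace Vale.Agent.Results.P141.Combined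

open Vale.Agent.Lib.P141
open scoped ENNReal

theorem result :
    (∀ p₁ p₂ p₃ r : ℝ≥0∞, IsHolderTuple p₁ p₂ p₃ r → r ≤ 7 / 16 → ¬ BoundedAt p₁ p₂ p₃ r) ∧
    (∀ p : ℝ, 1 < p → p ≤ 4 / 3 →
      IsHolderTuple (ENNReal.ofReal p) (ENNReal.ofReal p) (ENNReal.ofReal p)
        (ENNReal.ofReal (p / 3)) ∧
      ¬ BoundedAt (ENNReal.ofReal p) (ENNReal.ofReal p) (ENNReal.ofReal p)
        (ENNReal.ofReal (p / 3))) ∧
    (∀ (b : ℤ) (X₀ D₁ D₂ D₃ : Finset ℤ), 2 ≤ b →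
      (∀ x ∈ X₀, ∀ y ∈ X₀, b ∣ x - y → x = y) →
      (∀ x ∈ X₀, ∃ t : ℤ, x - t ∈ D₁ ∧ x - 2 * t ∈ D₂ ∧ x - 3 * t ∈ D₃) →
      ∀ p₁ p₂ p₃ r : ℝ, 0 < p₁ → 0 < p₂ → 0 < p₃ → 0 < r →
        (b : ℝ) * (D₁.card : ℝ) ^ (1 / p₁) * (D₂.card : ℝ) ^ (1 / p₂) * (D₃.card : ℝ) ^ (1 / p₃)
          < (X₀.card : ℝ) ^ (1 / r) →
        ¬ BoundedAt (ENNReal.ofReal p₁) (ENNReal.ofReal p₂) (ENNReal.ofReal p₃)
          (ENNReal.ofReal r)) := by
  refine ⟨fun p₁ p₂ p₃ r h hr => SmallR.result h hr, fun p hp hp' => ⟨?_, Diagonal.result hp hp'⟩,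
    fun b X₀ D₁ D₂ D₃ hb hinj hcov p₁ p₂ p₃ r h1 h2 h3 hr hineq =>
      Criterion.result b hb X₀ D₁ D₂ D₃ hinj hcov h1 h2 h3 hr hineq⟩
  have hp0 : 0 < p := by linarith
  have h1 : 1 < ENNReal.ofReal p := by
    rw [← ENNReal.ofReal_one]
    exact (ENNReal.ofReal_lt_ofReal_iff hp0).mpr hp
  refine ⟨h1, h1, h1, ENNReal.ofReal_pos.mpr (by positivity), ENNReal.ofReal_lt_top, ?_⟩
  rw [← ENNReal.ofReal_inv_of_pos (by positivity), ← ENNReal.ofReal_inv_of_pos hp0,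
    ← ENNReal.ofReal_add (by positivity) (by positivity),
    ← ENNReal.ofReal_add (by positivity) (by positivity)]
  congr 1
  field_simp
  norm_num

end Vale.Agent.Results.P141.Combined
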