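import Vale.Agent.Lib.P141.Holder

namespace Vale.Agent.Results.P141.SmallR

open Vale.Agent.Lib.P141
open scoped ENNReal

theorem num_aux : (35 / 2 : ℝ) < (7 / 2 : ℝ) ^ (16 / 7 : ℝ) := by
  have h1 : (35 / 2 : ℝ) = ((35 / 2 : ℝ) ^ (7 : ℕ)) ^ (1 / 7 : ℝ) := by
    rw [← Real.rpow_natCast, ← Real.rpow_mul (by norm_num)]
    norm_num
  have h2 : (7 / 2 : ℝ) ^ (16 / 7 : ℝ) = ((7 / 2 : ℝ) ^ (16 : ℕ)) ^ (1 / 7 : ℝ) := by
    rw [← Real.rpow_natCast, ← Real.rpow_mul (by norm_num)]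
    norm_num
  rw [h1, h2]
  exact Real.rpow_lt_rpow (by positivity) (by norm_num) (by norm_num)

theorem real_version {p₁ p₂ p₃ r : ℝ} (hp₁ : 1 < p₁) (hp₂ : 1 < p₂) (hp₃ : 1 < p₃) (hr : 0 < r)
    (hH : 1 / r = 1 / p₁ + 1 / p₂ + 1 / p₃) (hr' : r ≤ 7 / 16) :
    ¬ BoundedAt (ENNReal.ofReal p₁) (ENNReal.ofReal p₂) (ENNReal.ofReal p₃)
      (ENNReal.ofReal r) := by
  refine not_boundedAt_of_covering 14 (by norm_num) (Finset.Icc 0 13) {5, 7, 9, 11}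
    {8, 9, 10, 11} {7, 9, 11, 13, 15} ?_ ?_ (by linarith) (by linarith) (by linarith) hr ?_
  · intro x hx y hy h
    simp only [Finset.mem_Icc] at hx hy
    omega
  · intro x hx
    simp only [Finset.mem_Icc] at hx
    obtain ⟨h0, h1⟩ := hx
    interval_cases x
    · exact ⟨-5, by decide⟩
    · exact ⟨-4, by decide⟩
    · exact ⟨-3, by decide⟩
    · exact ⟨-4, by decide⟩
    · exact ⟨-3, by decide⟩
    · exact ⟨-2, by decide⟩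
    · exact ⟨-1, by decide⟩
    · exact ⟨-2, by decide⟩
    · exact ⟨-1, by decide⟩
    · exact ⟨0, by decide⟩
    · exact ⟨1, by decide⟩
    · exact ⟨0, by decide⟩
    · exact ⟨1, by decide⟩
    · exact ⟨2, by decide⟩
  · have c1 : (({5, 7, 9, 11} : Finset ℤ).card : ℝ) = 4 := by
      have : ({5, 7, 9, 11} : Finset ℤ).card = 4 := by decide
      rw [this]; norm_num
    have c2 : (({8, 9, 10, 11} : Finset ℤ).card : ℝ) = 4 := by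
      have : ({8, 9, 10, 11} : Finset ℤ).card = 4 := by decide
      rw [this]; norm_num
    have c3 : (({7, 9, 11, 13, 15} : Finset ℤ).card : ℝ) = 5 := by
      have : ({7, 9, 11, 13, 15} : Finset ℤ).card = 5 := by decide
      rw [this]; norm_num
    have c0 : ((Finset.Icc (0 : ℤ) 13).card : ℝ) = 14 := by
      have : (Finset.Icc (0 : ℤ) 13).card = 14 := by decide
      rw [this]; norm_num
    rw [c0, c1, c2, c3, hH]
    set q₁ := 1 / p₁ with hq₁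
    set q₂ := 1 / p₂ with hq₂
    set q₃ := 1 / p₃ with hq₃
    have hq₃1 : q₃ ≤ 1 := by
      rw [hq₃, div_le_one (by linarith)]; exact hp₃.le
    have hs : 16 / 7 ≤ q₁ + q₂ + q₃ := by
      rw [← hH, le_div_iff₀ hr]; linarith
    -- 14^(q₁+q₂+q₃) = (7/2)^(q₁+q₂+q₃) * 4^(q₁+q₂+q₃)
    have e14 : (14 : ℝ) ^ (q₁ + q₂ + q₃) = (7 / 2 : ℝ) ^ (q₁ + q₂ + q₃) * 4 ^ (q₁ + q₂ + q₃) := by
      rw [← Real.mul_rpow (by norm_num) (by norm_num)]; norm_num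
    have e4 : (4 : ℝ) ^ (q₁ + q₂ + q₃) = 4 ^ q₁ * 4 ^ q₂ * 4 ^ q₃ := by
      rw [Real.rpow_add (by norm_num), Real.rpow_add (by norm_num)]
    have e5 : (5 : ℝ) ^ q₃ = (5 / 4 : ℝ) ^ q₃ * 4 ^ q₃ := by
      rw [← Real.mul_rpow (by norm_num) (by norm_num)]; norm_num
    have h54 : (5 / 4 : ℝ) ^ q₃ ≤ 5 / 4 := by
      calc (5 / 4 : ℝ) ^ q₃ ≤ (5 / 4 : ℝ) ^ (1 : ℝ) :=
            Real.rpow_le_rpow_of_exponent_le (by norm_num) hq₃1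
        _ = 5 / 4 := Real.rpow_one _
    have h72 : (35 / 2 : ℝ) < (7 / 2 : ℝ) ^ (q₁ + q₂ + q₃) :=
      lt_of_lt_of_le num_aux (Real.rpow_le_rpow_of_exponent_le (by norm_num) hs)
    have hpos : 0 < (4 : ℝ) ^ q₁ * 4 ^ q₂ * 4 ^ q₃ := by positivity
    rw [e14, e4, e5]
    calc ((14 : ℤ) : ℝ) * 4 ^ q₁ * 4 ^ q₂ * ((5 / 4 : ℝ) ^ q₃ * 4 ^ q₃)
        = (14 * (5 / 4 : ℝ) ^ q₃) * (4 ^ q₁ * 4 ^ q₂ * 4 ^ q₃) := by push_cast; ring
      _ ≤ (14 * (5 / 4)) * (4 ^ q₁ * 4 ^ q₂ * 4 ^ q₃) := by gcongr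
      _ = (35 / 2) * (4 ^ q₁ * 4 ^ q₂ * 4 ^ q₃) := by ring
      _ < (7 / 2 : ℝ) ^ (q₁ + q₂ + q₃) * (4 ^ q₁ * 4 ^ q₂ * 4 ^ q₃) := by gcongr

/-- The trilinear Hilbert transform (slopes 1, 2, 3) is not bounded at any Holder tuple
`(p₁, p₂, p₃, r)` with `r ≤ 7/16`. -/
theorem result {p₁ p₂ p₃ r : ℝ≥0∞} (h : IsHolderTuple p₁ p₂ p₃ r) (hr : r ≤ 7 / 16) :
    ¬ BoundedAt p₁ p₂ p₃ r := by
  have hr' : r.toReal ≤ 7 / 16 := by
    have h716 : (7 / 16 : ℝ≥0∞) ≠ ∞ := by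
      apply ENNReal.div_ne_top (by norm_num) (by norm_num)
    have := ENNReal.toReal_mono h716 hr
    simpa [ENNReal.toReal_div] using this
  obtain ⟨a₁, a₂, a₃, hR, hH, b₁, b₂, b₃, b₄⟩ := h.real_of_le_half (by linarith)
  rw [b₁, b₂, b₃, b₄]
  exact real_version a₁ a₂ a₃ hR hH hr'

end Vale.Agent.Results.P141.SmallR
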